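import Vale.Agent.P133.Iter

namespace Vale.Agent.Results.P133.A_full

open Vale.Agent.P133

universe u

theorem result (C : Type u) [NonUnitalCStarAlgebra C] [PartialOrder C] [StarOrderedRing C] :
    PurelyInfinite C ↔ StronglyPurelyInfinite C :=
  ⟨spi_of_pi C, pi_of_spi C⟩

end Vale.Agent.Results.P133.A_full
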